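import Vale.Agent.Helper16.KTV.Chain

/-!
Module C5 of the bipartite switch-chain project (problem P335): the three-row
inequality for binary tables, derived from the property `TV2` of three-row
colouring systems by transporting along the bijection between a three-row
fibre and the colourings of its non-frozen columns.
-/

namespace KTV

open Finset

section Transport

theorem sqDev_image {X Y : Type*} [DecidableEq Y] (Ω : Finset X) (e : X → Y)
    (he : Set.InjOn e Ω) (F : Y → ℝ) :
    sqDev (Ω.image e) F = sqDev Ω (fun x => F (e x)) := by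
  unfold sqDev
  rw [Finset.sum_image he, Finset.sum_image he, Finset.card_image_of_injOn he]

/-- Transport of `TV2` along an injective map whose labels determine the
original labels. -/
theorem TV2.transport {X Y Λ Λ' κ : Type*} [Fintype κ] [DecidableEq Y] (Ω : Finset X)
    (lab : κ → X → Λ) (lab' : κ → Y → Λ') (e : X → Y) (he : Set.InjOn e Ω)
    (φ : κ → Λ' → Λ) (hφ : ∀ r, ∀ x ∈ Ω, lab r x = φ r (lab' r (e x)))
    (h : TV2 (Ω.image e) lab') : TV2 Ω lab := by
  intro G
  have h1 := h (fun r l => G r (φ r l))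
  rw [sqDev_image Ω e he] at h1
  have h2 : ∀ r, sqDev (Ω.image e) (fun y => G r (φ r (lab' r y)))
      = sqDev Ω (fun x => G r (lab r x)) := by
    intro r
    rw [sqDev_image Ω e he]
    exact sqDev_congr Ω fun x hx => by rw [hφ r x hx]
  rw [Finset.sum_congr rfl fun r _ => h2 r] at h1
  have h3 : sqDev Ω (fun x => ∑ r, G r (φ r (lab' r (e x))))
      = sqDev Ω (fun x => ∑ r, G r (lab r x)) :=
    sqDev_congr Ω fun x hx => Finset.sum_congr rfl fun r _ => by rw [hφ r x hx]
  rw [h3] at h1
  exact h1

end Transport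

section Tables

variable {α β : Type*} [Fintype α] [DecidableEq α] [Fintype β] [DecidableEq β]

/-- Number of ones of column `j` within the three rows `rows 0, rows 1, rows 2`. -/
def s3 (rows : Fin 3 → α) (x : Tab α β) (j : β) : ℕ :=
  (if x (rows 0) j = true then 1 else 0) + (if x (rows 1) j = true then 1 else 0)
    + (if x (rows 2) j = true then 1 else 0)

/-- The set of the three rows. -/
def rowSet (rows : Fin 3 → α) : Finset α := {rows 0, rows 1, rows 2}

omit [Fintype α] [DecidableEq α] in
theorem rows_ne (rows : Fin 3 → α) (hinj : Function.Injective rows) :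
    rows 0 ≠ rows 1 ∧ rows 0 ≠ rows 2 ∧ rows 1 ≠ rows 2 :=
  ⟨fun h => absurd (hinj h) (by decide), fun h => absurd (hinj h) (by decide),
    fun h => absurd (hinj h) (by decide)⟩

omit [Fintype α] in
theorem mem_rowSet (rows : Fin 3 → α) (r' : α) :
    r' ∈ rowSet rows ↔ ∃ r, rows r = r' := by
  unfold rowSet
  constructor
  · intro h
    simp only [Finset.mem_insert, Finset.mem_singleton] at h
    rcases h with h | h | h
    · exact ⟨0, h.symm⟩
    · exact ⟨1, h.symm⟩
    · exact ⟨2, h.symm⟩
  · rintro ⟨r, rfl⟩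
    fin_cases r <;> simp

theorem colSum_split (rows : Fin 3 → α) (hinj : Function.Injective rows) (x : Tab α β)
    (j : β) :
    colSum x j = s3 rows x j
      + (univ.filter fun r' => r' ∉ rowSet rows ∧ x r' j = true).card := by
  obtain ⟨h01, h02, h12⟩ := rows_ne rows hinj
  unfold colSum
  rw [← Finset.card_filter_add_card_filter_not (fun r' => r' ∈ rowSet rows)]
  rw [Finset.filter_filter, Finset.filter_filter]
  congr 1
  · have : (univ.filter fun r' => x r' j = true ∧ r' ∈ rowSet rows)
        = (rowSet rows).filter (fun r' => x r' j = true) := by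
      ext r'; simp [and_comm]
    rw [this, Finset.card_filter, rowSet, Finset.sum_insert (by simp [h01, h02]),
      Finset.sum_insert (by simp [h12]), Finset.sum_singleton]
    unfold s3
    ring
  · congr 1
    ext r'
    simp [and_comm]

/-- The non-frozen columns of the three-row system through `x0`. -/
abbrev NF (rows : Fin 3 → α) (x0 : Tab α β) : Type _ :=
  {j : β // s3 rows x0 j = 1 ∨ s3 rows x0 j = 2}

/-- Type of a non-frozen column: `true` when the three rows hold exactly one `1`. -/
def ty (rows : Fin 3 → α) (x0 : Tab α β) : NF rows x0 → Bool :=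
  fun j => decide (s3 rows x0 j.1 = 1)

/-- The colouring of the non-frozen columns attached to a table. -/
def enc (rows : Fin 3 → α) (x0 : Tab α β) (y : Tab α β) : NF rows x0 → Fin 3 :=
  fun j => if y (rows 0) j.1 = ty rows x0 j then 0
    else if y (rows 1) j.1 = ty rows x0 j then 1 else 2

/-- Row `r` reconstructed from the colour class `C` of `r`. -/
def phi (rows : Fin 3 → α) (x0 : Tab α β) (r : Fin 3) (C : Finset (NF rows x0)) : β → Bool :=
  fun j => if h : s3 rows x0 j = 1 ∨ s3 rows x0 j = 2 then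
      (if (⟨j, h⟩ : NF rows x0) ∈ C then ty rows x0 ⟨j, h⟩ else !ty rows x0 ⟨j, h⟩)
    else x0 (rows r) j

/-- Row `r` of the table attached to a colouring. -/
def decRow (rows : Fin 3 → α) (x0 : Tab α β) (r : Fin 3) (σ : NF rows x0 → Fin 3) : β → Bool :=
  phi rows x0 r (univ.filter fun j => σ j = r)

/-- The table attached to a colouring. -/
def dec (rows : Fin 3 → α) (x0 : Tab α β) (σ : NF rows x0 → Fin 3) : Tab α β :=
  fun r' => if r' = rows 0 then decRow rows x0 0 σ
    else if r' = rows 1 then decRow rows x0 1 σ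
    else if r' = rows 2 then decRow rows x0 2 σ else x0 r'

theorem dec_rows (rows : Fin 3 → α) (hinj : Function.Injective rows) (x0 : Tab α β)
    (σ : NF rows x0 → Fin 3) (r : Fin 3) :
    dec rows x0 σ (rows r) = decRow rows x0 r σ := by
  obtain ⟨h01, h02, h12⟩ := rows_ne rows hinj
  fin_cases r
  · simp [dec]
  · simp [dec, h01.symm]
  · simp [dec, h02.symm, h12.symm]

theorem dec_off (rows : Fin 3 → α) (x0 : Tab α β) (σ : NF rows x0 → Fin 3) (r' : α)
    (hr' : r' ∉ rowSet rows) : dec rows x0 σ r' = x0 r' := by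
  simp only [rowSet, Finset.mem_insert, Finset.mem_singleton, not_or] at hr'
  simp [dec, hr'.1, hr'.2.1, hr'.2.2]

omit [Fintype α] [DecidableEq α] in
theorem decRow_apply_nf (rows : Fin 3 → α) (x0 : Tab α β) (r : Fin 3)
    (σ : NF rows x0 → Fin 3) (j : NF rows x0) :
    decRow rows x0 r σ j.1 = if σ j = r then ty rows x0 j else !ty rows x0 j := by
  unfold decRow phi
  rw [dif_pos j.2]
  simp

omit [Fintype α] [DecidableEq α] in
theorem decRow_apply_frozen (rows : Fin 3 → α) (x0 : Tab α β) (r : Fin 3)
    (σ : NF rows x0 → Fin 3) (j : β) (h : ¬ (s3 rows x0 j = 1 ∨ s3 rows x0 j = 2)) :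
    decRow rows x0 r σ j = x0 (rows r) j := by
  unfold decRow phi
  rw [dif_neg h]

omit [Fintype α] [DecidableEq α] [Fintype β] [DecidableEq β] in
theorem fin3_cases (r : Fin 3) : r = 0 ∨ r = 1 ∨ r = 2 := by
  fin_cases r <;> simp

omit [Fintype α] [DecidableEq α] [Fintype β] [DecidableEq β] in
theorem bool_aux1 (u : Fin 3 → Bool) (t : Bool) (m : ℕ)
    (hm : (if u 0 = true then 1 else 0) + (if u 1 = true then 1 else 0)
      + (if u 2 = true then 1 else 0) = m)
    (h : m = 1 ∨ m = 2) (ht : t = decide (m = 1)) (r : Fin 3) :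
    u r = if (if u 0 = t then (0 : Fin 3) else if u 1 = t then 1 else 2) = r then t else !t := by
  subst hm
  subst ht
  rcases fin3_cases r with rfl | rfl | rfl <;>
  · generalize u 0 = u0 at *
    generalize u 1 = u1 at *
    generalize u 2 = u2 at *
    revert h
    cases u0 <;> cases u1 <;> cases u2 <;> simp

omit [Fintype α] [DecidableEq α] [Fintype β] [DecidableEq β] in
theorem bool_aux2 (u v : Fin 3 → Bool)
    (hm : (if u 0 = true then 1 else 0) + (if u 1 = true then 1 else 0)
      + (if u 2 = true then 1 else 0) = (if v 0 = true then 1 else 0)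
      + (if v 1 = true then 1 else 0) + (if v 2 = true then 1 else 0))
    (h : ¬ ((if v 0 = true then 1 else 0) + (if v 1 = true then 1 else 0)
      + (if v 2 = true then 1 else 0) = 1 ∨ (if v 0 = true then 1 else 0)
      + (if v 1 = true then 1 else 0) + (if v 2 = true then 1 else 0) = 2)) (r : Fin 3) :
    u r = v r := by
  rcases fin3_cases r with rfl | rfl | rfl <;>
  · generalize u 0 = u0 at *
    generalize u 1 = u1 at *
    generalize u 2 = u2 at *
    generalize v 0 = v0 at *
    generalize v 1 = v1 at *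
    generalize v 2 = v2 at *
    revert h hm
    cases u0 <;> cases u1 <;> cases u2 <;> cases v0 <;> cases v1 <;> cases v2 <;> simp

/-- A table with the same three-row column sums as `x0` is recovered from its colouring. -/
theorem row_eq_decRow (rows : Fin 3 → α) (x0 y : Tab α β)
    (hs : ∀ j, s3 rows y j = s3 rows x0 j) (r : Fin 3) :
    y (rows r) = decRow rows x0 r (enc rows x0 y) := by
  funext j
  by_cases h : s3 rows x0 j = 1 ∨ s3 rows x0 j = 2
  · rw [decRow_apply_nf rows x0 r _ ⟨j, h⟩]
    exact bool_aux1 (fun r => y (rows r) j) (ty rows x0 ⟨j, h⟩) (s3 rows x0 j) (hs j) h rfl r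
  · rw [decRow_apply_frozen rows x0 r _ j h]
    exact bool_aux2 (fun r => y (rows r) j) (fun r => x0 (rows r) j) (hs j) h r

omit [Fintype α] [DecidableEq α] [Fintype β] [DecidableEq β] in
theorem bool_aux3 (v : Fin 3) (t : Bool) (m : ℕ) (h : m = 1 ∨ m = 2)
    (ht : t = decide (m = 1)) :
    (if (if v = 0 then t else !t) = true then 1 else 0)
      + (if (if v = 1 then t else !t) = true then 1 else 0)
      + (if (if v = 2 then t else !t) = true then 1 else 0) = m := by
  subst ht
  rcases h with rfl | rfl <;> rcases fin3_cases v with rfl | rfl | rfl <;> simp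

/-- The table of a colouring has the three-row column sums of `x0`. -/
theorem s3_dec (rows : Fin 3 → α) (hinj : Function.Injective rows) (x0 : Tab α β)
    (σ : NF rows x0 → Fin 3) (j : β) : s3 rows (dec rows x0 σ) j = s3 rows x0 j := by
  unfold s3
  rw [dec_rows rows hinj, dec_rows rows hinj, dec_rows rows hinj]
  by_cases h : s3 rows x0 j = 1 ∨ s3 rows x0 j = 2
  · rw [decRow_apply_nf rows x0 0 σ ⟨j, h⟩, decRow_apply_nf rows x0 1 σ ⟨j, h⟩,
      decRow_apply_nf rows x0 2 σ ⟨j, h⟩]
    exact bool_aux3 (σ ⟨j, h⟩) (ty rows x0 ⟨j, h⟩) (s3 rows x0 j) h rfl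
  · rw [decRow_apply_frozen rows x0 0 σ j h, decRow_apply_frozen rows x0 1 σ j h,
      decRow_apply_frozen rows x0 2 σ j h]

omit [Fintype α] [DecidableEq α] [Fintype β] [DecidableEq β] in
theorem bool_aux4 (v : Fin 3) (t : Bool) :
    (if (if v = 0 then t else !t) = t then (0 : Fin 3)
      else if (if v = 1 then t else !t) = t then 1 else 2) = v := by
  rcases fin3_cases v with rfl | rfl | rfl <;> cases t <;> simp

theorem enc_dec (rows : Fin 3 → α) (hinj : Function.Injective rows) (x0 : Tab α β)
    (σ : NF rows x0 → Fin 3) : enc rows x0 (dec rows x0 σ) = σ := by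
  funext j
  unfold enc
  rw [dec_rows rows hinj, dec_rows rows hinj, decRow_apply_nf, decRow_apply_nf]
  exact bool_aux4 (σ j) (ty rows x0 j)

omit [DecidableEq β] in
theorem sum_dite_subtype (p : β → Prop) [DecidablePred p] (D : {j // p j} → ℤ) :
    ∑ j : β, (if h : p j then D ⟨j, h⟩ else 0) = ∑ j : {j // p j}, D j := by
  calc ∑ j : β, (if h : p j then D ⟨j, h⟩ else 0)
      = ∑ j ∈ univ.filter p, (if h : p j then D ⟨j, h⟩ else 0) := by
        symm
        apply Finset.sum_filter_of_ne
        intro j _ hne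
        by_contra hp
        exact hne (dif_neg hp)
    _ = ∑ x : {j // p j}, (if h : p x.1 then D ⟨x.1, h⟩ else 0) :=
        Finset.sum_subtype _ (by simp) _
    _ = ∑ x : {j // p j}, D x := Finset.sum_congr rfl fun x _ => by rw [dif_pos x.2]

/-- The contribution to the row sum of row `r` that does not depend on the colouring. -/
def rowConst (rows : Fin 3 → α) (x0 : Tab α β) (r : Fin 3) : ℤ :=
  ∑ j : β, if h : s3 rows x0 j = 1 ∨ s3 rows x0 j = 2 then
      (if ty rows x0 ⟨j, h⟩ = true then 0 else 1)
    else (if x0 (rows r) j = true then 1 else 0)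

omit [Fintype α] [DecidableEq α] in
/-- Row sum of the reconstructed row in terms of the colour counts. -/
theorem count_decRow (rows : Fin 3 → α) (x0 : Tab α β) (r : Fin 3) (σ : NF rows x0 → Fin 3) :
    ((univ.filter fun j => decRow rows x0 r σ j = true).card : ℤ)
      = rowConst rows x0 r
        + (((univ.filter fun j : NF rows x0 => ty rows x0 j = true ∧ σ j = r).card : ℤ)
          - ((univ.filter fun j : NF rows x0 => ty rows x0 j = false ∧ σ j = r).card : ℤ)) := by
  rw [Finset.card_filter, Finset.card_filter, Finset.card_filter]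
  push_cast
  rw [← Finset.sum_sub_distrib, ← sum_dite_subtype, rowConst, ← Finset.sum_add_distrib]
  apply Finset.sum_congr rfl
  intro j _
  by_cases h : s3 rows x0 j = 1 ∨ s3 rows x0 j = 2
  · rw [dif_pos h, dif_pos h, decRow_apply_nf rows x0 r σ ⟨j, h⟩]
    generalize ty rows x0 ⟨j, h⟩ = t
    by_cases hv : σ ⟨j, h⟩ = r <;> cases t <;> simp [hv]
  · rw [dif_neg h, dif_neg h, decRow_apply_frozen rows x0 r σ j h]
    simp

theorem mem_Omega_iff (ρ : α → ℕ) (c : β → ℕ) (x : Tab α β) :
    x ∈ Omega ρ c ↔ (∀ a, rowSum x a = ρ a) ∧ (∀ j, colSum x j = c j) := by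
  simp [Omega]

theorem mem_fibre_iff (Ω : Finset (Tab α β)) (S : Finset α) (x y : Tab α β) :
    y ∈ fibre Ω S x ↔ y ∈ Ω ∧ AgreeOff S x y := by
  simp [fibre]

/-- Tables of a three-row fibre have the same three-row column sums. -/
theorem s3_eq_of_mem_fibre (ρ : α → ℕ) (c : β → ℕ) (rows : Fin 3 → α)
    (hinj : Function.Injective rows) (x0 y : Tab α β) (hx0 : x0 ∈ Omega ρ c)
    (hy : y ∈ fibre (Omega ρ c) (rowSet rows) x0) (j : β) :
    s3 rows y j = s3 rows x0 j := by
  obtain ⟨hyΩ, hag⟩ := (mem_fibre_iff _ _ _ _).1 hy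
  have h1 := colSum_split rows hinj y j
  have h2 := colSum_split rows hinj x0 j
  have h3 : colSum y j = colSum x0 j := by
    rw [((mem_Omega_iff ρ c y).1 hyΩ).2 j, ((mem_Omega_iff ρ c x0).1 hx0).2 j]
  have h4 : (univ.filter fun r' => r' ∉ rowSet rows ∧ y r' j = true)
      = (univ.filter fun r' => r' ∉ rowSet rows ∧ x0 r' j = true) := by
    apply Finset.filter_congr
    intro r' _
    constructor
    · rintro ⟨hr, h⟩
      exact ⟨hr, by rw [hag r' hr]; exact h⟩
    · rintro ⟨hr, h⟩
      exact ⟨hr, by rw [← hag r' hr]; exact h⟩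
  rw [h4] at h1
  omega

end Tables

section Main

universe u v

variable {α : Type v} {β : Type u} [Fintype α] [DecidableEq α] [Fintype β] [DecidableEq β]

/-- A three-row fibre of a class of binary tables has property `TV2` for its
three rows, given `TV2` for three-row colouring systems. -/
theorem tv2_fibre
    (htv : ∀ (ι : Type u) [Fintype ι] [DecidableEq ι] (t : ι → Bool) (δ : Fin 3 → ℤ),
      TV2 (univ.filter fun σ : ι → Fin 3 => ∀ r,
          ((univ.filter fun j => t j = true ∧ σ j = r).card : ℤ)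
            - ((univ.filter fun j => t j = false ∧ σ j = r).card : ℤ) = δ r)
        (fun (r : Fin 3) (σ : ι → Fin 3) => univ.filter fun j => σ j = r))
    (ρ : α → ℕ) (c : β → ℕ) (rows : Fin 3 → α) (hinj : Function.Injective rows)
    (x0 : Tab α β) (hx0 : x0 ∈ Omega ρ c) :
    TV2 (fibre (Omega ρ c) (rowSet rows) x0)
      (fun (r : Fin 3) (y : Tab α β) => y (rows r)) := by
  have hs : ∀ y ∈ fibre (Omega ρ c) (rowSet rows) x0, ∀ j, s3 rows y j = s3 rows x0 j :=
    fun y hy j => s3_eq_of_mem_fibre ρ c rows hinj x0 y hx0 hy j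
  have hrec : ∀ y ∈ fibre (Omega ρ c) (rowSet rows) x0, ∀ r,
      y (rows r) = decRow rows x0 r (enc rows x0 y) :=
    fun y hy r => row_eq_decRow rows x0 y (hs y hy) r
  have hinjE : Set.InjOn (enc rows x0) (fibre (Omega ρ c) (rowSet rows) x0) := by
    intro y hy y' hy' he
    funext r'
    by_cases hr : r' ∈ rowSet rows
    · obtain ⟨r, rfl⟩ := (mem_rowSet rows r').1 hr
      rw [hrec y hy r, hrec y' hy' r, he]
    · have h1 := ((mem_fibre_iff _ _ _ _).1 hy).2 r' hr
      have h2 := ((mem_fibre_iff _ _ _ _).1 hy').2 r' hr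
      rw [← h1, ← h2]
  apply TV2.transport (fibre (Omega ρ c) (rowSet rows) x0) _
    (fun (r : Fin 3) (σ : NF rows x0 → Fin 3) => univ.filter fun j => σ j = r)
    (enc rows x0) hinjE (phi rows x0)
  · intro r y hy
    exact hrec y hy r
  · have himg : (fibre (Omega ρ c) (rowSet rows) x0).image (enc rows x0)
        = univ.filter fun σ : NF rows x0 → Fin 3 => ∀ r,
          ((univ.filter fun j => ty rows x0 j = true ∧ σ j = r).card : ℤ)
            - ((univ.filter fun j => ty rows x0 j = false ∧ σ j = r).card : ℤ)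
            = (ρ (rows r) : ℤ) - rowConst rows x0 r := by
      ext σ
      simp only [Finset.mem_image, Finset.mem_filter, Finset.mem_univ, true_and]
      constructor
      · rintro ⟨y, hy, rfl⟩ r
        have h1 := count_decRow rows x0 r (enc rows x0 y)
        rw [← hrec y hy r] at h1
        have h2 : rowSum y (rows r) = ρ (rows r) :=
          ((mem_Omega_iff ρ c y).1 ((mem_fibre_iff _ _ _ _).1 hy).1).1 (rows r)
        unfold rowSum at h2
        rw [h2] at h1
        linarith
      · intro hσ
        refine ⟨dec rows x0 σ, ?_, enc_dec rows hinj x0 σ⟩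
        rw [mem_fibre_iff, mem_Omega_iff]
        refine ⟨⟨?_, ?_⟩, ?_⟩
        · intro r'
          by_cases hr : r' ∈ rowSet rows
          · obtain ⟨r, rfl⟩ := (mem_rowSet rows r').1 hr
            unfold rowSum
            rw [dec_rows rows hinj]
            have h1 := count_decRow rows x0 r σ
            have h2 := hσ r
            have h3 : ((univ.filter fun j => decRow rows x0 r σ j = true).card : ℤ)
                = (ρ (rows r) : ℤ) := by linarith
            exact_mod_cast h3
          · unfold rowSum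
            rw [dec_off rows x0 σ r' hr]
            exact ((mem_Omega_iff ρ c x0).1 hx0).1 r'
        · intro j
          rw [colSum_split rows hinj, s3_dec rows hinj]
          have h4 : (univ.filter fun r' => r' ∉ rowSet rows ∧ dec rows x0 σ r' j = true)
              = (univ.filter fun r' => r' ∉ rowSet rows ∧ x0 r' j = true) := by
            apply Finset.filter_congr
            intro r' _
            constructor
            · rintro ⟨hr, h⟩
              exact ⟨hr, by rw [← dec_off rows x0 σ r' hr]; exact h⟩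
            · rintro ⟨hr, h⟩
              exact ⟨hr, by rw [dec_off rows x0 σ r' hr]; exact h⟩
          rw [h4, ← colSum_split rows hinj]
          exact ((mem_Omega_iff ρ c x0).1 hx0).2 j
        · intro r' hr
          exact (dec_off rows x0 σ r' hr).symm
    rw [himg]
    exact htv (NF rows x0) (ty rows x0) _

/-- Resampling the two rows other than `rows r`, inside a three-row fibre, is the
conditional expectation given row `rows r`. -/
theorem cexp_pair_eq (Ω : Finset (Tab α β)) (rows : Fin 3 → α) (x0 x : Tab α β)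
    (hx : x ∈ fibre Ω (rowSet rows) x0) (r : Fin 3) (f : Tab α β → ℝ) :
    cexp Ω ((rowSet rows).erase (rows r)) f x
      = cexpL (fibre Ω (rowSet rows) x0) (fun y => y (rows r)) f x := by
  obtain ⟨hxΩ, hxa⟩ := (mem_fibre_iff _ _ _ _).1 hx
  have hset : fibre Ω ((rowSet rows).erase (rows r)) x
      = (fibre Ω (rowSet rows) x0).filter (fun y => y (rows r) = x (rows r)) := by
    ext y
    rw [mem_fibre_iff, Finset.mem_filter, mem_fibre_iff]
    constructor
    · rintro ⟨hy, h⟩
      refine ⟨⟨hy, fun r' hr' => ?_⟩, ?_⟩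
      · exact (hxa r' hr').trans (h r' (fun hmem => hr' (Finset.mem_of_mem_erase hmem)))
      · exact (h (rows r) (by simp)).symm
    · rintro ⟨⟨hy, h⟩, hr⟩
      refine ⟨hy, fun r' hr' => ?_⟩
      by_cases hrr : r' = rows r
      · subst hrr
        exact hr.symm
      · have hnot : r' ∉ rowSet rows := fun hmem => hr' (Finset.mem_erase.2 ⟨hrr, hmem⟩)
        exact (hxa r' hnot).symm.trans (h r' hnot)
  rw [cexpL_eq]
  unfold cexp
  rw [hset]

/-- Resampling all three rows is the average over the three-row fibre. -/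
theorem cexp_all_eq (Ω : Finset (Tab α β)) (S : Finset α) (x0 x : Tab α β)
    (hx : x ∈ fibre Ω S x0) (f : Tab α β → ℝ) :
    cexp Ω S f x = (∑ y ∈ fibre Ω S x0, f y) / ((fibre Ω S x0).card : ℝ) := by
  obtain ⟨hxΩ, hxa⟩ := (mem_fibre_iff _ _ _ _).1 hx
  have hset : fibre Ω S x = fibre Ω S x0 := by
    ext y
    rw [mem_fibre_iff, mem_fibre_iff]
    constructor
    · rintro ⟨hy, h⟩
      exact ⟨hy, fun r' hr' => (hxa r' hr').trans (h r' hr')⟩
    · rintro ⟨hy, h⟩
      exact ⟨hy, fun r' hr' => (hxa r' hr').symm.trans (h r' hr')⟩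
  unfold cexp
  rw [hset]

/-- The three-row inequality on one three-row fibre. -/
theorem three_row_fibre
    (htv : ∀ (ι : Type u) [Fintype ι] [DecidableEq ι] (t : ι → Bool) (δ : Fin 3 → ℤ),
      TV2 (univ.filter fun σ : ι → Fin 3 => ∀ r,
          ((univ.filter fun j => t j = true ∧ σ j = r).card : ℤ)
            - ((univ.filter fun j => t j = false ∧ σ j = r).card : ℤ) = δ r)
        (fun (r : Fin 3) (σ : ι → Fin 3) => univ.filter fun j => σ j = r))
    (ρ : α → ℕ) (c : β → ℕ) (rows : Fin 3 → α) (hinj : Function.Injective rows)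
    (x0 : Tab α β) (hx0 : x0 ∈ Omega ρ c) (f : Tab α β → ℝ) :
    ∑ x ∈ fibre (Omega ρ c) (rowSet rows) x0,
        ((cexp (Omega ρ c) ((rowSet rows).erase (rows 2)) f x) ^ 2
          + (cexp (Omega ρ c) ((rowSet rows).erase (rows 1)) f x) ^ 2
          + (cexp (Omega ρ c) ((rowSet rows).erase (rows 0)) f x) ^ 2)
      ≤ 2 * ∑ x ∈ fibre (Omega ρ c) (rowSet rows) x0, (f x) ^ 2
        + ∑ x ∈ fibre (Omega ρ c) (rowSet rows) x0,
            (cexp (Omega ρ c) (rowSet rows) f x) ^ 2 := by
  have hT := tv2_fibre htv ρ c rows hinj x0 hx0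
  have hop := TV2.opform _ _ hT f
  set Φ := fibre (Omega ρ c) (rowSet rows) x0 with hΦ
  have hx0Φ : x0 ∈ Φ := (mem_fibre_iff _ _ _ _).2 ⟨hx0, fun _ _ => rfl⟩
  have hN : (0 : ℝ) < (Φ.card : ℝ) := by
    exact_mod_cast Finset.card_pos.2 ⟨x0, hx0Φ⟩
  have h1 : ∑ x ∈ Φ, ((cexp (Omega ρ c) ((rowSet rows).erase (rows 2)) f x) ^ 2
          + (cexp (Omega ρ c) ((rowSet rows).erase (rows 1)) f x) ^ 2
          + (cexp (Omega ρ c) ((rowSet rows).erase (rows 0)) f x) ^ 2)
      = ∑ r : Fin 3, ∑ x ∈ Φ, (cexpL Φ (fun y => y (rows r)) f x) ^ 2 := by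
    rw [Fin.sum_univ_three, ← Finset.sum_add_distrib, ← Finset.sum_add_distrib]
    apply Finset.sum_congr rfl
    intro x hx
    rw [cexp_pair_eq _ rows x0 x hx 0, cexp_pair_eq _ rows x0 x hx 1,
      cexp_pair_eq _ rows x0 x hx 2]
    ring
  have h2 : ∑ x ∈ Φ, (cexp (Omega ρ c) (rowSet rows) f x) ^ 2
      = (∑ x ∈ Φ, f x) ^ 2 / (Φ.card : ℝ) := by
    have : ∀ x ∈ Φ, (cexp (Omega ρ c) (rowSet rows) f x) ^ 2
        = ((∑ y ∈ Φ, f y) / (Φ.card : ℝ)) ^ 2 := by
      intro x hx
      rw [cexp_all_eq _ _ x0 x hx]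
    rw [Finset.sum_congr rfl this, Finset.sum_const, nsmul_eq_mul]
    field_simp
  rw [h1, h2]
  have h3 : ((Fintype.card (Fin 3) : ℝ) - 2) * (∑ x ∈ Φ, f x) ^ 2 / (Φ.card : ℝ)
      = (∑ x ∈ Φ, f x) ^ 2 / (Φ.card : ℝ) := by
    rw [Fintype.card_fin]
    norm_num
  rw [h3] at hop
  exact hop

/-- The three-row inequality for binary tables with prescribed margins (module C5),
given `TV2` for three-row colouring systems. -/
theorem three_row_of
    (htv : ∀ (ι : Type u) [Fintype ι] [DecidableEq ι] (t : ι → Bool) (δ : Fin 3 → ℤ),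
      TV2 (univ.filter fun σ : ι → Fin 3 => ∀ r,
          ((univ.filter fun j => t j = true ∧ σ j = r).card : ℤ)
            - ((univ.filter fun j => t j = false ∧ σ j = r).card : ℤ) = δ r)
        (fun (r : Fin 3) (σ : ι → Fin 3) => univ.filter fun j => σ j = r))
    (ρ : α → ℕ) (c : β → ℕ) {a b d : α} (hab : a ≠ b) (had : a ≠ d)
    (hbd : b ≠ d) (f : Tab α β → ℝ) :
    ∑ x ∈ Omega ρ c, ((cexp (Omega ρ c) {a, b} f x) ^ 2 + (cexp (Omega ρ c) {a, d} f x) ^ 2
        + (cexp (Omega ρ c) {b, d} f x) ^ 2)
      ≤ 2 * ∑ x ∈ Omega ρ c, (f x) ^ 2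
        + ∑ x ∈ Omega ρ c, (cexp (Omega ρ c) {a, b, d} f x) ^ 2 := by
  classical
  have hinj : Function.Injective (![a, b, d] : Fin 3 → α) := by
    intro i j h
    rcases fin3_cases i with rfl | rfl | rfl <;> rcases fin3_cases j with rfl | rfl | rfl <;>
      simp_all
  have hT : rowSet (![a, b, d] : Fin 3 → α) = {a, b, d} := by
    simp [rowSet]
  have e2 : (rowSet (![a, b, d] : Fin 3 → α)).erase ((![a, b, d] : Fin 3 → α) 2) = {a, b} := by
    ext r'
    simp only [rowSet, Finset.mem_erase, Finset.mem_insert, Finset.mem_singleton]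
    simp
    constructor
    · rintro ⟨h1, h2 | h2 | h2⟩
      · exact Or.inl h2
      · exact Or.inr h2
      · exact absurd h2 h1
    · rintro (h | h)
      · exact ⟨by rw [h]; exact had, Or.inl h⟩
      · exact ⟨by rw [h]; exact hbd, Or.inr (Or.inl h)⟩
  have e1 : (rowSet (![a, b, d] : Fin 3 → α)).erase ((![a, b, d] : Fin 3 → α) 1) = {a, d} := by
    ext r'
    simp only [rowSet, Finset.mem_erase, Finset.mem_insert, Finset.mem_singleton]
    simp
    constructor
    · rintro ⟨h1, h2 | h2 | h2⟩
      · exact Or.inl h2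
      · exact absurd h2 h1
      · exact Or.inr h2
    · rintro (h | h)
      · exact ⟨by rw [h]; exact hab, Or.inl h⟩
      · exact ⟨by rw [h]; exact hbd.symm, Or.inr (Or.inr h)⟩
  have e0 : (rowSet (![a, b, d] : Fin 3 → α)).erase ((![a, b, d] : Fin 3 → α) 0) = {b, d} := by
    ext r'
    simp only [rowSet, Finset.mem_erase, Finset.mem_insert, Finset.mem_singleton]
    simp
    constructor
    · rintro ⟨h1, h2 | h2 | h2⟩
      · exact absurd h2 h1
      · exact Or.inl h2
      · exact Or.inr h2
    · rintro (h | h)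
      · exact ⟨by rw [h]; exact hab.symm, Or.inr (Or.inl h)⟩
      · exact ⟨by rw [h]; exact had.symm, Or.inr (Or.inr h)⟩
  let key : Tab α β → Tab α β := fun x r' => if r' ∈ ({a, b, d} : Finset α) then (fun _ => false) else x r'
  have hkey : ∀ x y : Tab α β, key y = key x ↔ AgreeOff ({a, b, d} : Finset α) x y := by
    intro x y
    constructor
    · intro h r' hr'
      have := congrFun h r'
      simp only [key, if_neg hr'] at this
      exact this.symm
    · intro h
      funext r'
      by_cases hr' : r' ∈ ({a, b, d} : Finset α)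
      · simp only [key, if_pos hr']
      · simp only [key, if_neg hr']
        exact (h r' hr').symm
  rw [← sum_fibres (Omega ρ c) key (fun x => (cexp (Omega ρ c) {a, b} f x) ^ 2
      + (cexp (Omega ρ c) {a, d} f x) ^ 2 + (cexp (Omega ρ c) {b, d} f x) ^ 2),
    ← sum_fibres (Omega ρ c) key (fun x => f x ^ 2),
    ← sum_fibres (Omega ρ c) key (fun x => (cexp (Omega ρ c) {a, b, d} f x) ^ 2),
    Finset.mul_sum, ← Finset.sum_add_distrib]
  apply Finset.sum_le_sum
  intro z0 hz0
  obtain ⟨x0, hx0, rfl⟩ := Finset.mem_image.1 hz0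
  have hΦ : (Omega ρ c).filter (fun x => key x = key x0)
      = fibre (Omega ρ c) ({a, b, d} : Finset α) x0 := by
    ext y
    rw [Finset.mem_filter, mem_fibre_iff, hkey]
  rw [hΦ]
  have hmain := three_row_fibre htv ρ c ![a, b, d] hinj x0 hx0 f
  rw [e2, e1, e0, hT] at hmain
  exact hmain

end Main

end KTV
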